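import Mathlib

namespace Vale.Agent.P111.H380
open Complex Finset

noncomputable def be (L j : ℕ) : ℝ := Real.sin (Real.pi * j / (L + 1))

theorem be_zero (L : ℕ) : be L 0 = 0 := by simp [be]

theorem be_top (L : ℕ) : be L (L + 1) = 0 := by
  have h : (0 : ℝ) < (L : ℝ) + 1 := by positivity
  simp only [be]
  push_cast
  rw [mul_div_assoc, div_self h.ne', mul_one, Real.sin_pi]

theorem be_rec (L j : ℕ) :
    be L j + be L (j + 2) = 2 * Real.cos (Real.pi / (L + 1)) * be L (j + 1) := by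
  have h : (0 : ℝ) < (L : ℝ) + 1 := by positivity
  simp only [be]
  have e1 : Real.pi * (j : ℕ) / ((L : ℝ) + 1) =
      Real.pi * ((j + 1 : ℕ) : ℝ) / (L + 1) - Real.pi / (L + 1) := by
    push_cast; field_simp; ring
  have e2 : Real.pi * ((j + 2 : ℕ) : ℝ) / ((L : ℝ) + 1) =
      Real.pi * ((j + 1 : ℕ) : ℝ) / (L + 1) + Real.pi / (L + 1) := by
    push_cast; field_simp; ring
  rw [e1, e2, Real.sin_sub, Real.sin_add]
  ring

theorem be_one_pos {L : ℕ} (hL : 1 ≤ L) : 0 < be L 1 := by
  have hL' : (1 : ℝ) ≤ L := by exact_mod_cast hL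
  have h : (0 : ℝ) < (L : ℝ) + 1 := by positivity
  simp only [be]
  apply Real.sin_pos_of_pos_of_lt_pi
  · have := Real.pi_pos
    positivity
  · have := Real.pi_pos
    rw [div_lt_iff₀ h]
    push_cast
    nlinarith

noncomputable def aa (L : ℕ) : ℝ := ∑ j ∈ range L, be L (j + 1) ^ 2

theorem aa_pos {L : ℕ} (hL : 1 ≤ L) : 0 < aa L := by
  have h0 : 0 < be L (0 + 1) ^ 2 := by
    have := be_one_pos hL
    simp only [zero_add]; positivity
  exact lt_of_lt_of_le h0
    (Finset.single_le_sum (f := fun j => be L (j + 1) ^ 2) (fun i _ => sq_nonneg _)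
      (Finset.mem_range.2 (by omega)))

noncomputable def am (L : ℕ) (m : ℤ) : ℝ :=
  (∑ j ∈ range L, ∑ l ∈ range L,
    if (j : ℤ) - l - m = 0 then be L (j + 1) * be L (l + 1) else 0) / aa L

theorem am_zero {L : ℕ} (hL : 1 ≤ L) : am L 0 = 1 := by
  have hA := aa_pos hL
  rw [am, div_eq_one_iff_eq hA.ne', aa]
  refine Finset.sum_congr rfl fun j hj => ?_
  rw [Finset.sum_eq_single j]
  · simp [sq]
  · intro l _ hl
    rw [if_neg]
    intro h
    apply hl
    omega
  · intro h; exact absurd hj h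

theorem sum_shift (L : ℕ) :
    ∑ l ∈ range L, be L (l + 2) * be L (l + 1) = Real.cos (Real.pi / (L + 1)) * aa L := by
  have h1 : ∑ l ∈ range (L + 1), be L (l + 1) * be L l =
      ∑ l ∈ range L, be L (l + 2) * be L (l + 1) := by
    rw [Finset.sum_range_succ']
    simp [be_zero]
  have h2 : ∑ l ∈ range (L + 1), be L (l + 1) * be L l =
      ∑ l ∈ range L, be L (l + 1) * be L l := by
    rw [Finset.sum_range_succ]
    simp [be_top]
  have h3 : ∑ l ∈ range L, be L (l + 2) * be L (l + 1) +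
      ∑ l ∈ range L, be L (l + 1) * be L l =
      2 * (Real.cos (Real.pi / (L + 1)) * aa L) := by
    rw [aa, Finset.mul_sum, Finset.mul_sum, ← Finset.sum_add_distrib]
    refine Finset.sum_congr rfl fun j _ => ?_
    have := be_rec L j
    calc be L (j + 2) * be L (j + 1) + be L (j + 1) * be L j
        = be L (j + 1) * (be L j + be L (j + 2)) := by ring
      _ = _ := by rw [this]; ring
  rw [← h2, h1] at h3
  linarith

theorem am_one {L : ℕ} (hL : 1 ≤ L) : am L 1 = Real.cos (Real.pi / (L + 1)) := by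
  have hA := aa_pos hL
  rw [am, div_eq_iff hA.ne', ← sum_shift, Finset.sum_comm]
  refine Finset.sum_congr rfl fun l hl => ?_
  rcases Nat.lt_or_ge (l + 1) L with h | h
  · rw [Finset.sum_eq_single (l + 1)]
    · rw [if_pos (by push_cast; ring)]
    · intro j _ hj
      rw [if_neg]
      intro hh
      apply hj
      omega
    · intro hh; exact absurd (Finset.mem_range.2 h) hh
  · have hl' : l + 1 = L := by have := Finset.mem_range.1 hl; omega
    rw [Finset.sum_eq_zero]
    · have : l + 2 = L + 1 := by omega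
      rw [this, be_top, zero_mul]
    · intro j hj
      rw [if_neg]
      have := Finset.mem_range.1 hj
      omega

theorem am_neg_one {L : ℕ} (hL : 1 ≤ L) :
    am L (-1) = Real.cos (Real.pi / (L + 1)) := by
  have hA := aa_pos hL
  rw [am, div_eq_iff hA.ne', ← sum_shift]
  refine Finset.sum_congr rfl fun l hl => ?_
  rcases Nat.lt_or_ge (l + 1) L with h | h
  · rw [Finset.sum_eq_single (l + 1)]
    · rw [if_pos (by push_cast; ring)]
      ring
    · intro j _ hj
      rw [if_neg]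
      intro hh
      apply hj
      omega
    · intro hh; exact absurd (Finset.mem_range.2 h) hh
  · have hl' : l + 1 = L := by have := Finset.mem_range.1 hl; omega
    rw [Finset.sum_eq_zero]
    · have : l + 2 = L + 1 := by omega
      rw [this, be_top, zero_mul]
    · intro j hj
      rw [if_neg]
      have := Finset.mem_range.1 hj
      omega

theorem am_large {L : ℕ} {m : ℤ} (hm : (L : ℤ) ≤ |m|) : am L m = 0 := by
  rw [am]
  have : ∑ j ∈ range L, ∑ l ∈ range L,
      (if (j : ℤ) - l - m = 0 then be L (j + 1) * be L (l + 1) else 0) = 0 := by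
    refine Finset.sum_eq_zero fun j hj => Finset.sum_eq_zero fun l hl => ?_
    rw [if_neg]
    have h1 := Finset.mem_range.1 hj
    have h2 := Finset.mem_range.1 hl
    intro h
    rcases le_abs.1 hm with h3 | h3 <;> omega
  rw [this, zero_div]

theorem root_sum {N : ℕ} (hN : 0 < N) {n : ℤ} (hn : |n| < N) :
    ∑ r : Fin N, cexp (I * n * ((2 * Real.pi * ((r : ℕ) : ℝ) / N : ℝ) : ℂ)) =
      if n = 0 then (N : ℂ) else 0 := by
  have hN' : (N : ℂ) ≠ 0 := by exact_mod_cast hN.ne'
  split_ifs with h0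
  · subst h0
    simp
  · set z : ℂ := cexp (I * n * (2 * Real.pi) / N) with hz
    have e1 : ∀ r : ℕ, cexp (I * n * ((2 * Real.pi * (r : ℝ) / N : ℝ) : ℂ)) = z ^ r := by
      intro r
      rw [hz, ← Complex.exp_nat_mul]
      congr 1
      push_cast
      ring
    have e2 : z ^ N = 1 := by
      rw [hz, ← Complex.exp_nat_mul, Complex.exp_eq_one_iff]
      refine ⟨n, ?_⟩
      field_simp
    have e3 : z ≠ 1 := by
      intro h1
      rw [hz, Complex.exp_eq_one_iff] at h1
      obtain ⟨k, hk⟩ := h1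
      have hpi : (Real.pi : ℂ) ≠ 0 := by exact_mod_cast Real.pi_ne_zero
      have h3 : (n : ℂ) = k * N := by
        have h2 : I * n * (2 * Real.pi) = k * (2 * Real.pi * I) * N := by
          rw [← hk]; field_simp
        have h4 : (2 * Real.pi * I : ℂ) ≠ 0 := by
          simp [hpi, I_ne_zero]
        apply mul_left_cancel₀ h4
        linear_combination h2
      have h4 : n = k * N := by exact_mod_cast h3
      have hk0 : k ≠ 0 := by rintro rfl; simp at h4; exact h0 h4
      have h5 : (1 : ℤ) ≤ |k| := Int.one_le_abs hk0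
      rw [h4, abs_mul] at hn
      have h6 : |(N : ℤ)| = N := abs_of_nonneg (by positivity)
      rw [h6] at hn
      nlinarith
    have e4 : ∑ r : Fin N, cexp (I * n * ((2 * Real.pi * ((r : ℕ) : ℝ) / N : ℝ) : ℂ)) =
        ∑ r ∈ range N, z ^ r := by
      rw [← Fin.sum_univ_eq_sum_range (fun r => z ^ r)]
      exact Finset.sum_congr rfl fun r _ => e1 r
    rw [e4]
    have h7 := mul_neg_geom_sum z N
    rw [e2, sub_self] at h7
    rcases mul_eq_zero.1 h7 with h8 | h8
    · exact absurd (sub_eq_zero.1 h8).symm e3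
    · exact h8

noncomputable def pp (L : ℕ) (s : ℝ) : ℂ :=
  ∑ j ∈ range L, (be L (j + 1) : ℂ) * cexp (I * j * s)

theorem pp_sq (L : ℕ) (s : ℝ) : ((‖pp L s‖ ^ 2 : ℝ) : ℂ) =
    ∑ j ∈ range L, ∑ l ∈ range L,
      ((be L (j + 1) * be L (l + 1) : ℝ) : ℂ) * cexp (I * ((j : ℤ) - (l : ℤ) : ℤ) * s) := by
  have h1 : ((‖pp L s‖ ^ 2 : ℝ) : ℂ) = pp L s * (starRingEnd ℂ) (pp L s) := by
    rw [Complex.mul_conj, Complex.normSq_eq_norm_sq]
  have h2 : (starRingEnd ℂ) (pp L s) =
      ∑ l ∈ range L, (be L (l + 1) : ℂ) * cexp (-(I * l * s)) := by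
    rw [pp, map_sum]
    refine Finset.sum_congr rfl fun l _ => ?_
    rw [map_mul, Complex.conj_ofReal, ← Complex.exp_conj]
    congr 2
    simp
  rw [h1, h2, pp, Finset.sum_mul_sum]
  refine Finset.sum_congr rfl fun j _ => Finset.sum_congr rfl fun l _ => ?_
  push_cast
  have h3 : cexp (I * (j - l) * s) = cexp (I * j * s) * cexp (-(I * l * s)) := by
    rw [← Complex.exp_add]; congr 1; ring
  rw [h3]
  ring

theorem kernel (L M : ℕ) (hL : 1 ≤ L) :
    ∃ (N : ℕ) (s w : Fin N → ℝ) (a : ℤ → ℝ), (∀ r, 0 ≤ w r) ∧ ∑ r, w r = 1 ∧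
      (∀ m : ℤ, |m| ≤ M → ∑ r, (w r : ℂ) * Complex.exp (-(Complex.I * m * s r)) = a m) ∧
      (∀ m : ℤ, (L : ℤ) ≤ |m| → a m = 0) ∧
      ∑ r, w r * ‖Complex.exp (Complex.I * s r) - 1‖ ≤ Real.pi / (L + 1) := by
  have hA := aa_pos hL
  set N : ℕ := M + L + 1 with hN
  have hN0 : 0 < N := by omega
  have hN' : (0 : ℝ) < N := by exact_mod_cast hN0
  set s : Fin N → ℝ := fun r => 2 * Real.pi * ((r : ℕ) : ℝ) / N with hs
  set w : Fin N → ℝ := fun r => ‖pp L (s r)‖ ^ 2 / (aa L * N) with hw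
  have hw0 : ∀ r, 0 ≤ w r := fun r => by simp only [hw]; positivity
  have key : ∀ m : ℤ, |m| ≤ M + 1 →
      ∑ r, (w r : ℂ) * Complex.exp (-(Complex.I * m * s r)) = am L m := by
    intro m hm
    have e1 : ∀ r, (w r : ℂ) * Complex.exp (-(Complex.I * m * s r)) =
        ∑ j ∈ range L, ∑ l ∈ range L, ((be L (j + 1) * be L (l + 1) : ℝ) : ℂ) / (aa L * N) *
          cexp (I * ((j : ℤ) - (l : ℤ) - m : ℤ) * s r) := by
      intro r
      simp only [hw]
      rw [Complex.ofReal_div, pp_sq]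
      push_cast
      rw [Finset.sum_div, Finset.sum_mul]
      refine Finset.sum_congr rfl fun j _ => ?_
      rw [Finset.sum_div, Finset.sum_mul]
      refine Finset.sum_congr rfl fun l _ => ?_
      have h3 : cexp (I * (j - l - m) * s r) =
          cexp (I * (j - l) * s r) * cexp (-(I * m * s r)) := by
        rw [← Complex.exp_add]; congr 1; ring
      rw [h3]
      ring
    rw [Finset.sum_congr rfl fun r _ => e1 r, Finset.sum_comm]
    rw [am, Complex.ofReal_div, Complex.ofReal_sum, Finset.sum_div]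
    refine Finset.sum_congr rfl fun j hj => ?_
    rw [Finset.sum_comm, Complex.ofReal_sum, Finset.sum_div]
    refine Finset.sum_congr rfl fun l hl => ?_
    rw [← Finset.mul_sum]
    have h1 := Finset.mem_range.1 hj
    have h2 := Finset.mem_range.1 hl
    have h4 : |(j : ℤ) - (l : ℤ) - m| < N := by
      have h5 := abs_le.1 hm
      rw [abs_lt]
      constructor <;> push_cast [hN] <;> omega
    have h6 := root_sum hN0 h4
    rw [show (∑ r : Fin N, cexp (I * ((j : ℤ) - (l : ℤ) - m : ℤ) * s r)) =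
      if (j : ℤ) - (l : ℤ) - m = 0 then (N : ℂ) else 0 from h6]
    have hNc : (N : ℂ) ≠ 0 := by exact_mod_cast hN0.ne'
    have hAc : ((aa L : ℝ) : ℂ) ≠ 0 := by exact_mod_cast hA.ne'
    split_ifs with h7
    · field_simp
    · simp
  have hsum : ∑ r, w r = 1 := by
    have h1 := key 0 (by simp; positivity)
    rw [am_zero hL] at h1
    have h2 : ∑ r, (w r : ℂ) = 1 := by
      rw [← show ((1 : ℝ) : ℂ) = 1 by simp, ← h1]
      refine Finset.sum_congr rfl fun r _ => ?_
      simp
    exact_mod_cast h2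
  refine ⟨N, s, w, am L, hw0, hsum, fun m hm => key m (by linarith), fun m hm => am_large hm, ?_⟩
  -- second moment
  have hsec : ∑ r, w r * ‖cexp (I * s r) - 1‖ ^ 2 = 2 - 2 * Real.cos (Real.pi / (L + 1)) := by
    have h1 := key 1 (by simp)
    have h2 := key (-1) (by simp)
    rw [am_one hL] at h1
    rw [am_neg_one hL] at h2
    have h3 : ((∑ r, w r * ‖cexp (I * s r) - 1‖ ^ 2 : ℝ) : ℂ) =
        2 * (∑ r, (w r : ℂ)) - (∑ r, (w r : ℂ) * Complex.exp (-(Complex.I * (1 : ℤ) * s r))) -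
        ∑ r, (w r : ℂ) * Complex.exp (-(Complex.I * (-1 : ℤ) * s r)) := by
      rw [Finset.mul_sum, ← Finset.sum_sub_distrib, ← Finset.sum_sub_distrib, Complex.ofReal_sum]
      refine Finset.sum_congr rfl fun r _ => ?_
      have h4 : ((‖cexp (I * s r) - 1‖ ^ 2 : ℝ) : ℂ) =
          (cexp (I * s r) - 1) * (cexp (-(I * s r)) - 1) := by
        have : (starRingEnd ℂ) (cexp (I * s r) - 1) = cexp (-(I * s r)) - 1 := by
          rw [map_sub, ← Complex.exp_conj]
          simp
        rw [← this, Complex.mul_conj, Complex.normSq_eq_norm_sq]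
      have h5 : cexp (I * s r) * cexp (-(I * s r)) = 1 := by
        rw [← Complex.exp_add]; simp
      rw [Complex.ofReal_mul, h4]
      have h6 : cexp (-(I * (1 : ℤ) * s r)) = cexp (-(I * s r)) := by congr 1; push_cast; ring
      have h7 : cexp (-(I * (-1 : ℤ) * s r)) = cexp (I * s r) := by congr 1; push_cast; ring
      rw [h6, h7]
      linear_combination (w r : ℂ) * h5
    rw [h1, h2] at h3
    have h8 : (∑ r, (w r : ℂ)) = 1 := by exact_mod_cast hsum
    rw [h8] at h3
    have h9 : ((∑ r, w r * ‖cexp (I * s r) - 1‖ ^ 2 : ℝ) : ℂ) =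
        ((2 - 2 * Real.cos (Real.pi / (L + 1)) : ℝ) : ℂ) := by
      rw [h3]; push_cast; ring
    exact_mod_cast h9
  set T : ℝ := ∑ r, w r * ‖cexp (I * s r) - 1‖ with hT
  have hvar : 0 ≤ ∑ r, w r * (‖cexp (I * s r) - 1‖ - T) ^ 2 :=
    Finset.sum_nonneg fun r _ => mul_nonneg (hw0 r) (sq_nonneg _)
  have hexp : ∑ r, w r * (‖cexp (I * s r) - 1‖ - T) ^ 2 =
      (∑ r, w r * ‖cexp (I * s r) - 1‖ ^ 2) - T ^ 2 := by
    have : ∀ r, w r * (‖cexp (I * s r) - 1‖ - T) ^ 2 =
        w r * ‖cexp (I * s r) - 1‖ ^ 2 - 2 * T * (w r * ‖cexp (I * s r) - 1‖) + T ^ 2 * w r := by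
      intro r; ring
    rw [Finset.sum_congr rfl fun r _ => this r, Finset.sum_add_distrib, Finset.sum_sub_distrib,
      ← Finset.mul_sum, ← Finset.mul_sum, ← hT, hsum]
    ring
  rw [hexp, hsec] at hvar
  have hcos := Real.one_sub_sq_div_two_le_cos (x := Real.pi / ((L : ℝ) + 1))
  have hT2 : T ^ 2 ≤ (Real.pi / ((L : ℝ) + 1)) ^ 2 := by linarith
  have hpos : 0 ≤ Real.pi / ((L : ℝ) + 1) := by positivity
  by_contra hlt
  push Not at hlt
  nlinarith

end Vale.Agent.P111.H380
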